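import Vale.Agent.Results.P317.TruncationDensity

open Set

namespace Vale.Agent.Results.P317.GirthDensity

variable {α : Type*}

/-- `∑_{j ≤ k} x^j ≤ (x+1)^k`. -/
lemma geom_le (x k : ℕ) : ∑ j ∈ Finset.range (k + 1), x ^ j ≤ (x + 1) ^ k := by
  induction k with
  | zero => simp
  | succ k ih =>
    rw [Finset.sum_range_succ]
    have h1 : x ^ (k + 1) ≤ x * (x + 1) ^ k := by
      rw [pow_succ, mul_comm]
      exact Nat.mul_le_mul_left x (Nat.pow_le_pow_left (Nat.le_succ x) k)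
    calc ∑ j ∈ Finset.range (k + 1), x ^ j + x ^ (k + 1)
        ≤ (x + 1) ^ k + x * (x + 1) ^ k := Nat.add_le_add ih h1
      _ = (x + 1) ^ (k + 1) := by ring

/-- `∑_{j ≤ k} C(r,j) C(m,j) ≤ (r m + 1)^k`. -/
lemma choose_sum_le (r m k : ℕ) :
    ∑ j ∈ Finset.range (k + 1), r.choose j * m.choose j ≤ (r * m + 1) ^ k := by
  refine le_trans (Finset.sum_le_sum ?_) (geom_le (r * m) k)
  intro j _
  rw [mul_pow]
  exact Nat.mul_le_mul (Nat.choose_le_pow r j) (Nat.choose_le_pow m j)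

/-- **Common bases are dense when one matroid has large girth (or dominates a truncation of the
other).**  `M₁`, `M₂` are matroids on the same `n`-element ground set, `M₁` has rank `r`, and they
have a common base.  Assume either that every circuit of `M₂` has more than `r - k` elements
(`M₁` arbitrary; `k = 1` says that `M₂` is paving), or, more generally, that every
`M₁`-independent set with at most `r - k` elements is `M₂`-independent.  Then

* every base of `M₁` is within `k` exchanges of a common base;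
* `|B(M₁)| ≤ (∑_{j ≤ k} C(r,j) C(n-r,j)) · N(M₁,M₂)`;
* `|B(M₁)| ≤ (r (n-r) + 1)^k · N(M₁,M₂)`;
* a uniformly random base of `M₁` is a common base with probability at least
  `1 / (r (n-r) + 1)^k`. -/
theorem result [Finite α] (M₁ M₂ : Matroid α) (r k : ℕ)
    (hE₁ : M₁.E = Set.univ) (hE₂ : M₂.E = Set.univ) (hr₁ : M₁.eRank = r)
    (hne : ∃ B, M₁.IsBase B ∧ M₂.IsBase B)
    (hyp : (∀ C, M₂.IsCircuit C → r < C.ncard + k) ∨
      (∀ I, M₁.Indep I → I.ncard + k ≤ r → M₂.Indep I)) :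
    (∀ B, M₁.IsBase B → ∃ B', M₁.IsBase B' ∧ M₂.IsBase B' ∧ (B' \ B).ncard ≤ k) ∧
    {B | M₁.IsBase B}.ncard ≤
      (∑ j ∈ Finset.range (k + 1), r.choose j * (Nat.card α - r).choose j) *
        {B | M₁.IsBase B ∧ M₂.IsBase B}.ncard ∧
    {B | M₁.IsBase B}.ncard ≤
      (r * (Nat.card α - r) + 1) ^ k * {B | M₁.IsBase B ∧ M₂.IsBase B}.ncard ∧
    (1 : ℝ) / (((r * (Nat.card α - r) + 1) ^ k : ℕ) : ℝ) ≤
      ({B | M₁.IsBase B ∧ M₂.IsBase B}.ncard : ℝ) / ({B | M₁.IsBase B}.ncard : ℝ) := by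
  have hyp' : ∀ I, M₁.Indep I → I.ncard + k ≤ r → M₂.Indep I := by
    rcases hyp with hg | h
    · intro I _ hIk
      by_contra hI
      have hIE : I ⊆ M₂.E := by rw [hE₂]; exact Set.subset_univ I
      have hdep : M₂.Dep I := (Matroid.not_indep_iff hIE).1 hI
      obtain ⟨C, hCI, hC⟩ := hdep.exists_isCircuit_subset
      have h1 : C.ncard ≤ I.ncard := Set.ncard_le_ncard hCI (Set.toFinite I)
      have h2 := hg C hC
      omega
    · exact h
  obtain ⟨hnear, hcount⟩ :=
    Vale.Agent.Results.P317.TruncationDensity.result M₁ M₂ r k hE₁ hE₂ hr₁ hyp' hne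
  have hpoly : {B | M₁.IsBase B}.ncard ≤
      (r * (Nat.card α - r) + 1) ^ k * {B | M₁.IsBase B ∧ M₂.IsBase B}.ncard :=
    le_trans hcount (Nat.mul_le_mul_right _ (choose_sum_le r (Nat.card α - r) k))
  refine ⟨hnear, hcount, hpoly, ?_⟩
  have hpos : 0 < {B | M₁.IsBase B}.ncard := by
    obtain ⟨B, hB, _⟩ := hne
    exact (Set.ncard_pos (Set.toFinite _)).2 ⟨B, hB⟩
  have hKpos : 0 < (r * (Nat.card α - r) + 1) ^ k := Nat.pow_pos (Nat.succ_pos _)
  rw [div_le_div_iff₀ (by exact_mod_cast hKpos) (by exact_mod_cast hpos), one_mul, mul_comm]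
  exact_mod_cast hpoly

end Vale.Agent.Results.P317.GirthDensity
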