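import Mathlib

open Set

namespace Vale.Agent.Results.P317.PavingDensity

variable {α : Type*}

/-- Key step: a base of `M₁` that is not a base of the paving matroid `M₂` is one exchange away
from a common base. -/
lemma exists_exchange [Finite α] {M₁ M₂ : Matroid α} {r : ℕ} (hE : M₁.E = M₂.E)
    (hr₁ : M₁.eRank = r) (hr₂ : M₂.eRank = r)
    (hpav : ∀ C, M₂.IsCircuit C → r ≤ C.ncard)
    {B₀ : Set α} (h₁ : M₁.IsBase B₀) (h₂ : M₂.IsBase B₀)
    {B : Set α} (hB : M₁.IsBase B) (hB₂ : ¬ M₂.IsBase B) :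
    ∃ e ∈ B, ∃ f, f ∉ B ∧ M₁.IsBase (insert f (B \ {e})) ∧ M₂.IsBase (insert f (B \ {e})) := by
  classical
  have hBfin : B.Finite := Set.toFinite B
  have hBcard : B.encard = r := by rw [hB.encard_eq_eRank, hr₁]
  have hBE₂ : B ⊆ M₂.E := hE ▸ hB.subset_ground
  -- `B` is dependent in `M₂`
  have hBdep : M₂.Dep B := by
    rw [← Matroid.not_indep_iff hBE₂]
    intro hI
    apply hB₂
    apply hI.isBase_of_eRk_ge hBfin
    rw [hI.eRk_eq_encard, hBcard, hr₂]
  -- so it contains a circuit, which has to be all of `B`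
  obtain ⟨C, hCB, hC⟩ := hBdep.exists_isCircuit_subset
  have hCeq : C = B := by
    apply Set.eq_of_subset_of_ncard_le hCB _ hBfin
    have h1 : B.ncard = r := by
      have := hBfin.cast_ncard_eq
      rw [hBcard] at this
      exact_mod_cast this
    rw [h1]
    exact hpav C hC
  subst hCeq
  -- `B₀` is not contained in the closure of `C`
  have hnot : ¬ B₀ ⊆ M₂.closure C := by
    intro hsub
    have hsp : M₂.Spanning C := by
      have := h₂.spanning
      exact (this.closure_eq ▸ (M₂.closure_subset_closure_of_subset_closure hsub)) |> fun h =>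
        by
          rw [Matroid.spanning_iff_closure_eq hBE₂]
          exact subset_antisymm (M₂.closure_subset_ground C) h
    obtain ⟨B', hB', hB'C⟩ := hsp.exists_isBase_subset
    have hc : B'.encard = C.encard := by rw [hB'.encard_eq_eRank, hr₂, hBcard]
    have : B' = C := (Set.toFinite B').eq_of_subset_of_encard_le hB'C hc.ge
    exact hB₂ (this ▸ hB')
  obtain ⟨f, hfB₀, hfcl⟩ := Set.not_subset.1 hnot
  have hfC : f ∉ C := fun h => hfcl (M₂.subset_closure C hBE₂ h)
  -- exchange in `M₁`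
  have hfind : M₁.Indep {f} := h₁.indep.subset (by simpa using hfB₀)
  obtain ⟨B', hB', hfB', hB'sub⟩ := hfind.exists_isBase_subset_union_isBase hB
  have hfB'' : f ∈ B' := hfB' (mem_singleton f)
  have hdiff : (B' \ C) = {f} := by
    apply subset_antisymm
    · rintro x ⟨hx, hxC⟩
      rcases hB'sub hx with h | h
      · exact h
      · exact (hxC h).elim
    · rintro x rfl
      exact ⟨hfB'', hfC⟩
  obtain ⟨e, he, hBe⟩ := hB'.eq_exchange_of_sdiff_eq_singleton hB hdiff
  -- `C = insert e B' \ {f}`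
  have hef : e ≠ f := fun h => hfC (h ▸ he.1)
  have hB'eq : B' = insert f (C \ {e}) := by
    ext x
    constructor
    · intro hx
      by_cases hxf : x = f
      · exact Or.inl hxf
      · right
        refine ⟨?_, ?_⟩
        · rw [hBe]; exact ⟨Or.inr hx, hxf⟩
        · intro hxe
          exact he.2 (hxe ▸ hx)
    · rintro (rfl | ⟨hxC, hxe⟩)
      · exact hfB''
      · rw [hBe] at hxC
        rcases hxC.1 with h | h
        · exact (hxe h).elim
        · exact h
  refine ⟨e, he.1, f, hfC, hB'eq ▸ hB', ?_⟩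
  -- independence in `M₂`
  have hCe : M₂.Indep (C \ {e}) := hC.sdiff_singleton_indep he.1
  have hfE : f ∈ M₂.E := h₂.subset_ground hfB₀
  have hind : M₂.Indep (insert f (C \ {e})) := by
    rw [hCe.insert_indep_iff]
    left
    refine ⟨hfE, fun h => hfcl ?_⟩
    exact M₂.closure_subset_closure sdiff_subset h
  apply hind.isBase_of_eRk_ge (Set.toFinite _)
  rw [hind.eRk_eq_encard, hr₂, ← hB'eq, hB'.encard_eq_eRank, hr₁]

/-- **Density of common bases.**  Let `M₁` be an arbitrary matroid and `M₂` a paving matroid (every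
circuit has at least `r` elements), both of rank `r` on the same `n`-element ground set.  If they
have a common base at all, then at least a `1 / (r (n - r) + 1)` fraction of the bases of `M₁` are
common bases. -/
theorem result [Finite α] (M₁ M₂ : Matroid α) (r : ℕ)
    (hE₁ : M₁.E = Set.univ) (hE₂ : M₂.E = Set.univ)
    (hr₁ : M₁.eRank = r) (hr₂ : M₂.eRank = r)
    (hpav : ∀ C, M₂.IsCircuit C → r ≤ C.ncard)
    (hne : ∃ B, M₁.IsBase B ∧ M₂.IsBase B) :
    {B | M₁.IsBase B}.ncard ≤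
      (r * (Nat.card α - r) + 1) * {B | M₁.IsBase B ∧ M₂.IsBase B}.ncard := by
  classical
  obtain ⟨B₀, h₁, h₂⟩ := hne
  have hE : M₁.E = M₂.E := hE₁.trans hE₂.symm
  set 𝓑 : Set (Set α) := {B | M₁.IsBase B} with h𝓑
  set 𝓒 : Set (Set α) := {B | M₁.IsBase B ∧ M₂.IsBase B} with h𝓒
  have key : ∀ B : Set α, B ∈ 𝓑 \ 𝓒 → ∃ B' ∈ 𝓒, ∃ e ∈ B, ∃ f, f ∉ B ∧ B' = insert f (B \ {e}) := by
    rintro B ⟨hB, hBC⟩
    have hB₂ : ¬ M₂.IsBase B := fun h => hBC ⟨hB, h⟩
    obtain ⟨e, he, f, hf, hb₁, hb₂⟩ := exists_exchange hE hr₁ hr₂ hpav h₁ h₂ hB hB₂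
    exact ⟨_, ⟨hb₁, hb₂⟩, e, he, f, hf, rfl⟩
  choose! φ hφ𝓒 hφ using key
  have hcardbase : ∀ B' ∈ 𝓒, B'.ncard = r := by
    intro B' hB'
    have h := (Set.toFinite B').cast_ncard_eq
    rw [hB'.1.encard_eq_eRank, hr₁] at h
    exact_mod_cast h
  -- the fibres of `φ` are small
  have hfib : ∀ B' ∈ 𝓒, {B ∈ 𝓑 \ 𝓒 | φ B = B'}.ncard ≤ r * (Nat.card α - r) := by
    intro B' hB'
    have hsub : {B ∈ 𝓑 \ 𝓒 | φ B = B'} ⊆
        (fun p : α × α => insert p.2 (B' \ {p.1})) '' (B' ×ˢ B'ᶜ) := by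
      rintro B ⟨hB, rfl⟩
      obtain ⟨e, he, f, hf, hEq⟩ := hφ B hB
      have hef : e ≠ f := fun h => hf (h ▸ he)
      refine ⟨(f, e), ⟨?_, ?_⟩, ?_⟩
      · rw [hEq]; exact Or.inl rfl
      · rw [hEq]
        rintro (h | h)
        · exact hef h
        · exact h.2 rfl
      · simp only
        rw [hEq]
        ext x
        constructor
        · rintro (rfl | ⟨hx | hx, hxf⟩)
          · exact he
          · exact (hxf hx).elim
          · exact hx.1
        · intro hx
          by_cases hxe : x = e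
          · exact Or.inl hxe
          · exact Or.inr ⟨Or.inr ⟨hx, hxe⟩, fun h => hf (h ▸ hx)⟩
    calc {B ∈ 𝓑 \ 𝓒 | φ B = B'}.ncard
        ≤ ((fun p : α × α => insert p.2 (B' \ {p.1})) '' (B' ×ˢ B'ᶜ)).ncard :=
          Set.ncard_le_ncard hsub (Set.toFinite _)
      _ ≤ (B' ×ˢ B'ᶜ).ncard := Set.ncard_image_le (Set.toFinite _)
      _ = B'.ncard * B'ᶜ.ncard := Set.ncard_prod
      _ = r * (Nat.card α - r) := by
          rw [Set.ncard_compl, hcardbase B' hB']
  -- count
  have hcount : (𝓑 \ 𝓒).ncard ≤ (r * (Nat.card α - r)) * 𝓒.ncard := by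
    have hfin1 : (𝓑 \ 𝓒).Finite := Set.toFinite _
    have hfin2 : 𝓒.Finite := Set.toFinite _
    rw [Set.ncard_eq_toFinset_card _ hfin1, Set.ncard_eq_toFinset_card _ hfin2]
    apply Finset.card_le_mul_card_image_of_maps_to (f := φ)
    · intro B hB
      rw [Set.Finite.mem_toFinset] at hB ⊢
      exact hφ𝓒 B hB
    · intro B' hB'
      rw [Set.Finite.mem_toFinset] at hB'
      have := hfib B' hB'
      rw [Set.ncard_eq_toFinset_card _ (Set.toFinite _)] at this
      refine le_trans (Finset.card_le_card ?_) this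
      intro B hB
      rw [Finset.mem_filter, Set.Finite.mem_toFinset] at hB
      rw [Set.Finite.mem_toFinset]
      exact hB
  have hsub : 𝓒 ⊆ 𝓑 := fun B hB => hB.1
  have hsplit : 𝓑.ncard = (𝓑 \ 𝓒).ncard + 𝓒.ncard :=
    (Set.ncard_sdiff_add_ncard_of_subset hsub (Set.toFinite _)).symm
  rw [hsplit]
  nlinarith [hcount]

end Vale.Agent.Results.P317.PavingDensity
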