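import Vale.Agent.P317.Exchange

open Set

namespace Vale.Agent.Results.P317.TruncationDensity

open Vale.Agent.P317

variable {α : Type*}

/-- Let `M₁`, `M₂` be matroids on the same finite ground set with `n` elements, `M₁` of rank `r`,
having a common base.  Suppose that every `M₁`-independent set with at most `r - k` elements is
`M₂`-independent.  Then every base of `M₁` is within `k` exchanges of a common base, and therefore
the common bases are at least a `1 / ∑_{j ≤ k} C(r,j) C(n-r,j)` fraction of the bases of `M₁`. -/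
theorem result [Finite α] (M₁ M₂ : Matroid α) (r k : ℕ)
    (hE₁ : M₁.E = Set.univ) (hE₂ : M₂.E = Set.univ) (hr₁ : M₁.eRank = r)
    (hyp : ∀ I, M₁.Indep I → I.ncard + k ≤ r → M₂.Indep I)
    (hne : ∃ B, M₁.IsBase B ∧ M₂.IsBase B) :
    (∀ B, M₁.IsBase B → ∃ B', M₁.IsBase B' ∧ M₂.IsBase B' ∧ (B' \ B).ncard ≤ k) ∧
    {B | M₁.IsBase B}.ncard ≤
      (∑ j ∈ Finset.range (k + 1), r.choose j * (Nat.card α - r).choose j) *
        {B | M₁.IsBase B ∧ M₂.IsBase B}.ncard := by
  classical
  have := Fintype.ofFinite α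
  have hE : M₁.E = M₂.E := hE₁.trans hE₂.symm
  have hnear : ∀ B, M₁.IsBase B → ∃ B', M₁.IsBase B' ∧ M₂.IsBase B' ∧ (B' \ B).ncard ≤ k :=
    fun B hB => exists_near hE hr₁ hyp hne hB
  refine ⟨hnear, ?_⟩
  set 𝓑 : Set (Set α) := {B | M₁.IsBase B} with h𝓑
  set 𝓒 : Set (Set α) := {B | M₁.IsBase B ∧ M₂.IsBase B} with h𝓒
  set K : ℕ := ∑ j ∈ Finset.range (k + 1), r.choose j * (Nat.card α - r).choose j with hK
  have key : ∀ B : Set α, B ∈ 𝓑 → ∃ B' ∈ 𝓒, (B' \ B).ncard ≤ k := by
    intro B hB
    obtain ⟨B', h1, h2, h3⟩ := hnear B hB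
    exact ⟨B', ⟨h1, h2⟩, h3⟩
  choose! φ hφ𝓒 hφ using key
  have hfib : ∀ B' ∈ 𝓒, {B ∈ 𝓑 | φ B = B'}.ncard ≤ K := by
    intro B' hB'
    set idx : Finset (Finset α × Finset α) :=
      (Finset.range (k + 1)).biUnion
        (fun j => (B'.toFinset.powersetCard j) ×ˢ (B'.toFinsetᶜ.powersetCard j)) with hidx
    have hB'card : B'.toFinset.card = r := by
      rw [← Set.ncard_eq_toFinset_card']
      exact ncard_eq_of_isBase hr₁ hB'.1
    have hidxcard : idx.card ≤ K := by
      refine le_trans Finset.card_biUnion_le ?_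
      apply le_of_eq
      apply Finset.sum_congr rfl
      intro j _
      rw [Finset.card_product, Finset.card_powersetCard, Finset.card_powersetCard,
        Finset.card_compl, hB'card, Nat.card_eq_fintype_card]
    have hsub : {B ∈ 𝓑 | φ B = B'} ⊆
        (fun p : Finset α × Finset α => (B' \ (p.1 : Set α)) ∪ (p.2 : Set α)) '' (idx : Set _) := by
      rintro B ⟨hB, rfl⟩
      have hdist := hφ B hB
      have hbase' := (hφ𝓒 B hB).1
      refine ⟨((φ B \ B).toFinset, (B \ φ B).toFinset), ?_, ?_⟩
      · rw [Finset.mem_coe, hidx, Finset.mem_biUnion]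
        refine ⟨(φ B \ B).ncard, Finset.mem_range.2 (by omega), ?_⟩
        rw [Finset.mem_product, Finset.mem_powersetCard, Finset.mem_powersetCard]
        refine ⟨⟨?_, ?_⟩, ?_, ?_⟩
        · intro x hx
          rw [Set.mem_toFinset] at hx ⊢
          exact hx.1
        · rw [← Set.ncard_eq_toFinset_card']
        · intro x hx
          rw [Set.mem_toFinset] at hx
          rw [Finset.mem_compl, Set.mem_toFinset]
          exact hx.2
        · rw [← Set.ncard_eq_toFinset_card']
          exact hB.ncard_sdiff_comm hbase'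
      · simp only [Set.coe_toFinset]
        ext x
        constructor
        · rintro (⟨hx, hx'⟩ | hx)
          · by_contra hxB
            exact hx' ⟨hx, hxB⟩
          · exact hx.1
        · intro hx
          by_cases hx' : x ∈ φ B
          · exact Or.inl ⟨hx', fun h => h.2 hx⟩
          · exact Or.inr ⟨hx, hx'⟩
    calc {B ∈ 𝓑 | φ B = B'}.ncard
        ≤ ((fun p : Finset α × Finset α => (B' \ (p.1 : Set α)) ∪ (p.2 : Set α)) ''
            (idx : Set _)).ncard := Set.ncard_le_ncard hsub (Set.toFinite _)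
      _ ≤ (idx : Set (Finset α × Finset α)).ncard := Set.ncard_image_le (Set.toFinite _)
      _ = idx.card := Set.ncard_coe_finset _
      _ ≤ K := hidxcard
  have hfin1 : 𝓑.Finite := Set.toFinite _
  have hfin2 : 𝓒.Finite := Set.toFinite _
  rw [Set.ncard_eq_toFinset_card _ hfin1, Set.ncard_eq_toFinset_card _ hfin2]
  apply Finset.card_le_mul_card_image_of_maps_to (f := φ)
  · intro B hB
    rw [Set.Finite.mem_toFinset] at hB ⊢
    exact hφ𝓒 B hB
  · intro B' hB'
    rw [Set.Finite.mem_toFinset] at hB'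
    have := hfib B' hB'
    rw [Set.ncard_eq_toFinset_card _ (Set.toFinite _)] at this
    refine le_trans (Finset.card_le_card ?_) this
    intro B hB
    rw [Finset.mem_filter, Set.Finite.mem_toFinset] at hB
    rw [Set.Finite.mem_toFinset]
    exact hB

end Vale.Agent.Results.P317.TruncationDensity
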